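import Vale.Agent.P032.H800.WP14.AD

/-!
# P032: hexagons around a centre with six colours, box tables (WP14, rows A0)
-/

open Vale.Agent.P032.Words.Trie

namespace Vale.Agent.P032.H800.WP14.A

theorem k0 : chkQ0 D J R 74 T = true := by decide +kernel
theorem c0 : csP D J T 0 = true := by decide +kernel
theorem c2 : csP D J T 2 = true := by decide +kernel
theorem c4 : csP D J T 4 = true := by decide +kernel
theorem c6 : csP D J T 6 = true := by decide +kernel
theorem c8 : csP D J T 8 = true := by decide +kernel
theorem c10 : csP D J T 10 = true := by decide +kernel
theorem c12 : csP D J T 12 = true := by decide +kernel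
theorem c14 : csP D J T 14 = true := by decide +kernel
theorem c16 : csP D J T 16 = true := by decide +kernel
theorem c18 : csP D J T 18 = true := by decide +kernel
theorem c20 : csP D J T 20 = true := by decide +kernel

end Vale.Agent.P032.H800.WP14.A
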